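import Mathlib

/-!
Definitions for P295 (the stable coordinate conjecture).
-/

namespace Vale.Agent.Lib.P295

open MvPolynomial

/-- `f` is a coordinate (variable) of the polynomial ring `K[x_i : i ∈ σ]`: some `K`-algebra
automorphism sends one of the variables to `f`. -/
def IsCoordinate {K : Type*} [CommRing K] {σ : Type*} (f : MvPolynomial σ K) : Prop :=
  ∃ (φ : MvPolynomial σ K ≃ₐ[K] MvPolynomial σ K) (i : σ), φ (X i) = f

/-- `f ∈ K[x_1..x_n]` is an `m`-stable coordinate: it is a coordinate of the polynomial ring in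
`n + m` variables. -/
def IsStableCoordinateOfOrder {K : Type*} [CommRing K] {n : ℕ} (m : ℕ)
    (f : MvPolynomial (Fin n) K) : Prop :=
  IsCoordinate (rename (Fin.castAdd m) f : MvPolynomial (Fin (n + m)) K)

/-- `f` is a stable coordinate: an `m`-stable coordinate for some `m ≥ 1`. -/
def IsStableCoordinate {K : Type*} [CommRing K] {n : ℕ} (f : MvPolynomial (Fin n) K) : Prop :=
  ∃ m : ℕ, 1 ≤ m ∧ IsStableCoordinateOfOrder m f

end Vale.Agent.Lib.P295
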