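import Vale.Agent.Lib.P295.Slice

/-!
P295: stable coordinates that are sums of univariate polynomials in distinct variables.
-/

namespace Vale.Agent.Lib.P295

open MvPolynomial

/-- the sum `p_1(x_1) + ... + p_n(x_n)` of univariate polynomials in separate variables -/
noncomputable def sepSum {n : ℕ} (p : Fin n → Polynomial ℂ) : MvPolynomial (Fin n) ℂ :=
  ∑ i, Polynomial.aeval (X i : MvPolynomial (Fin n) ℂ) (p i)

lemma pderiv_sepSum {n : ℕ} (p : Fin n → Polynomial ℂ) (j : Fin n) :
    pderiv j (sepSum p)
      = Polynomial.aeval (X j : MvPolynomial (Fin n) ℂ) (Polynomial.derivative (p j)) := by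
  unfold sepSum
  rw [map_sum, Finset.sum_eq_single j]
  · rw [Derivation.map_aeval, pderiv_X_self, smul_eq_mul, mul_one]
  · intro i _ hij
    rw [Derivation.map_aeval, pderiv_X_of_ne hij, smul_zero]
  · intro h
    exact absurd (Finset.mem_univ _) h

lemma eval_pderiv_sepSum {n : ℕ} (p : Fin n → Polynomial ℂ) (j : Fin n) (a : Fin n → ℂ) :
    eval a (pderiv j (sepSum p)) = (Polynomial.derivative (p j)).eval (a j) := by
  rw [pderiv_sepSum]
  have h : (eval a) (Polynomial.aeval (X j : MvPolynomial (Fin n) ℂ) (Polynomial.derivative (p j)))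
      = Polynomial.aeval (eval a (X j : MvPolynomial (Fin n) ℂ)) (Polynomial.derivative (p j)) := by
    have := Polynomial.aeval_algHom_apply (MvPolynomial.aeval a : MvPolynomial (Fin n) ℂ →ₐ[ℂ] ℂ)
      (X j : MvPolynomial (Fin n) ℂ) (Polynomial.derivative (p j))
    simpa [MvPolynomial.coe_aeval_eq_eval] using this.symm
  rw [h, eval_X]
  simp [Polynomial.aeval_def, Polynomial.eval₂_eq_eval_map]

lemma natDegree_eq_one_of_derivative (q : Polynomial ℂ)
    (hdeg : (Polynomial.derivative q).degree = 0) : q.natDegree = 1 := by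
  have hpos : 0 < q.natDegree := by
    by_contra h0
    have h1 : q.natDegree = 0 := by omega
    rw [Polynomial.eq_C_of_natDegree_eq_zero h1, Polynomial.derivative_C,
      Polynomial.degree_zero] at hdeg
    exact absurd hdeg (by simp)
  have h2 := Polynomial.natDegree_derivative q
  have h3 : (Polynomial.derivative q).natDegree = 0 :=
    Polynomial.natDegree_eq_zero_iff_degree_le_zero.2 hdeg.le
  omega

/-- Stable coordinates of the form `p_1(x_1) + ... + p_n(x_n)` are coordinates, and one of the
`p_j` has degree one. -/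
theorem coordinate_of_stable_sepSum {n : ℕ} (p : Fin n → Polynomial ℂ)
    (h : IsStableCoordinate (sepSum p)) :
    IsCoordinate (sepSum p) ∧ ∃ j, (p j).natDegree = 1 := by
  obtain ⟨m, _, hm⟩ := h
  have hgrad := grad_no_zero (Fin.castAdd m) (Fin.castAdd_injective n m) _ hm
  have hex : ∃ j, ∀ r : ℂ, (Polynomial.derivative (p j)).eval r ≠ 0 := by
    by_contra hcon
    push Not at hcon
    choose a ha using hcon
    obtain ⟨j, hj⟩ := hgrad a
    rw [eval_pderiv_sepSum] at hj
    exact hj (ha j)
  obtain ⟨j, hj⟩ := hex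
  have hdeg : (Polynomial.derivative (p j)).degree = 0 := by
    by_contra hd
    obtain ⟨x, hx⟩ := IsAlgClosed.exists_root _ hd
    exact hj x hx
  obtain hc := Polynomial.eq_C_of_degree_eq_zero hdeg
  set c := (Polynomial.derivative (p j)).coeff 0 with hcdef
  have hc0 : c ≠ 0 := by
    intro h0
    have := hj 0
    rw [hc, h0] at this
    simp at this
  refine ⟨coordinate_of_slice _ (Pi.single j c⁻¹) ?_, j, natDegree_eq_one_of_derivative _ hdeg⟩
  rw [Finset.sum_eq_single j]
  · rw [Pi.single_eq_same, pderiv_sepSum, hc, Polynomial.aeval_C, algebraMap_eq, ← C_mul,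
      inv_mul_cancel₀ hc0, C_1]
  · intro i _ hij
    rw [Pi.single_eq_of_ne hij, C_0, zero_mul]
  · intro h
    exact absurd (Finset.mem_univ _) h

end Vale.Agent.Lib.P295
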