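import Vale.Agent.Lib.P295.Separable

/-!
P295: classification of the (stable) coordinates among the sums of univariate polynomials in
separate variables.
-/

namespace Vale.Agent.Lib.P295

open MvPolynomial

lemma derivative_eq_C_of_natDegree_one (q : Polynomial ℂ) (h : q.natDegree = 1) :
    ∃ c : ℂ, c ≠ 0 ∧ Polynomial.derivative q = Polynomial.C c := by
  refine ⟨q.coeff 1, ?_, ?_⟩
  · intro h0
    have h1 : q.leadingCoeff = 0 := by
      rw [Polynomial.leadingCoeff, h, h0]
    rw [Polynomial.leadingCoeff_eq_zero] at h1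
    rw [h1] at h
    simp at h
  · have hq : q = Polynomial.C (q.coeff 1) * Polynomial.X + Polynomial.C (q.coeff 0) :=
      Polynomial.eq_X_add_C_of_natDegree_le_one h.le
    conv_lhs => rw [hq]
    simp

/-- if some `p_j` has degree one, the sum stays a coordinate after any injective renaming of the
variables into a finite set of variables -/
theorem coordinate_rename_sepSum {n : ℕ} {τ : Type} [Fintype τ] [DecidableEq τ] (ι : Fin n → τ)
    (hι : Function.Injective ι) (p : Fin n → Polynomial ℂ) (j : Fin n)
    (hj : (p j).natDegree = 1) : IsCoordinate (rename ι (sepSum p)) := by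
  obtain ⟨c, hc0, hc⟩ := derivative_eq_C_of_natDegree_one (p j) hj
  refine coordinate_of_slice _ (Pi.single (ι j) c⁻¹) ?_
  rw [Finset.sum_eq_single (ι j)]
  · rw [Pi.single_eq_same, pderiv_rename hι, pderiv_sepSum, hc, Polynomial.aeval_C, algebraMap_eq,
      rename_C, ← C_mul, inv_mul_cancel₀ hc0, C_1]
  · intro i _ hij
    rw [Pi.single_eq_of_ne hij, C_0, zero_mul]
  · intro h
    exact absurd (Finset.mem_univ _) h

theorem sepSum_classification {n : ℕ} (p : Fin n → Polynomial ℂ) :
    (IsStableCoordinate (sepSum p) ↔ IsCoordinate (sepSum p)) ∧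
    (IsCoordinate (sepSum p) ↔ ∃ j, (p j).natDegree = 1) := by
  have h1 : IsStableCoordinate (sepSum p) → ∃ j, (p j).natDegree = 1 :=
    fun h => (coordinate_of_stable_sepSum p h).2
  have h2 : (∃ j, (p j).natDegree = 1) → IsStableCoordinate (sepSum p) := by
    rintro ⟨j, hj⟩
    exact ⟨1, le_refl 1, coordinate_rename_sepSum (Fin.castAdd 1) (Fin.castAdd_injective n 1) p j hj⟩
  have h3 : (∃ j, (p j).natDegree = 1) → IsCoordinate (sepSum p) :=
    fun h => (coordinate_of_stable_sepSum p (h2 h)).1
  have h4 : IsCoordinate (sepSum p) → ∃ j, (p j).natDegree = 1 := by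
    intro h
    have h' : IsCoordinate (rename (id : Fin n → Fin n) (sepSum p)) := by
      rwa [rename_id_apply]
    have hgrad := grad_no_zero (id : Fin n → Fin n) Function.injective_id _ h'
    by_contra hcon
    push Not at hcon
    have hroot : ∀ j, ∃ r : ℂ, (Polynomial.derivative (p j)).eval r = 0 := by
      intro j
      by_contra hno
      push Not at hno
      have hdeg : (Polynomial.derivative (p j)).degree = 0 := by
        by_contra hd
        obtain ⟨x, hx⟩ := IsAlgClosed.exists_root _ hd
        exact hno x hx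
      exact hcon j (natDegree_eq_one_of_derivative _ hdeg)
    choose a ha using hroot
    obtain ⟨j, hj⟩ := hgrad a
    rw [eval_pderiv_sepSum] at hj
    exact hj (ha j)
  exact ⟨⟨fun h => h3 (h1 h), fun h => h2 (h4 h)⟩, ⟨h4, h3⟩⟩

end Vale.Agent.Lib.P295
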