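import Vale.Agent.Lib.P295.Defs

namespace Vale.Agent.Lib.P295

open MvPolynomial

section

variable {K : Type*} [Field K]

/-- transport of a derivation along an algebra isomorphism. -/
noncomputable def conjDer {A B : Type*} [CommRing A] [CommRing B] [Algebra K A] [Algebra K B]
    (e : A ≃ₐ[K] B) (D : Derivation K B B) : Derivation K A A :=
  Derivation.mk' (e.symm.toLinearMap ∘ₗ D.toLinearMap ∘ₗ e.toLinearMap) (by
    intro a b
    simp only [LinearMap.comp_apply, AlgEquiv.toLinearMap_apply, map_mul, Derivation.coeFn_coe,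
      Derivation.leibniz, smul_eq_mul, map_add, AlgEquiv.symm_apply_apply])

lemma conjDer_apply {A B : Type*} [CommRing A] [CommRing B] [Algebra K A] [Algebra K B]
    (e : A ≃ₐ[K] B) (D : Derivation K B B) (a : A) : conjDer e D a = e.symm (D (e a)) := rfl

lemma der_sum_apply {A : Type*} [CommRing A] [Algebra K A] {ι : Type*} (s : Finset ι)
    (D : ι → Derivation K A A) (a : A) : (∑ j ∈ s, D j) a = ∑ j ∈ s, D j a := by
  classical
  induction s using Finset.induction_on with
  | empty => simp
  | insert j s hj ih => rw [Finset.sum_insert hj, Finset.sum_insert hj, Derivation.add_apply, ih]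

/-- every derivation of a polynomial ring is a combination of partial derivatives. -/
lemma der_eq_sum {σ : Type*} [Fintype σ] [DecidableEq σ]
    (D : Derivation K (MvPolynomial σ K) (MvPolynomial σ K)) (F : MvPolynomial σ K) :
    D F = ∑ j, D (X j) * pderiv j F := by
  have h : D = ∑ j, D (X j) • (pderiv j : Derivation K (MvPolynomial σ K) (MvPolynomial σ K)) := by
    apply MvPolynomial.derivation_ext
    intro i
    rw [der_sum_apply]
    simp only [Derivation.coe_smul, Pi.smul_apply, smul_eq_mul, pderiv_X]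
    rw [Finset.sum_eq_single i]
    · simp
    · intro j _ hj
      simp [hj.symm]
    · intro h; exact absurd (Finset.mem_univ i) h
  conv_lhs => rw [h]
  rw [der_sum_apply]
  simp only [Derivation.coe_smul, Pi.smul_apply, smul_eq_mul]

lemma grad_unimodular {σ : Type*} [Fintype σ] [DecidableEq σ] (F : MvPolynomial σ K)
    (h : IsCoordinate F) : ∃ c : σ → MvPolynomial σ K, ∑ j, c j * pderiv j F = 1 := by
  obtain ⟨φ, i, hφ⟩ := h
  refine ⟨fun j => conjDer φ.symm (pderiv i) (X j), ?_⟩
  rw [← der_eq_sum, conjDer_apply, ← hφ]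
  simp



/-- the linear shear `x ↦ x + x_{i0} v` as an algebra automorphism. -/
noncomputable def shear {σ : Type*} [DecidableEq σ] (v : σ → K) (i0 : σ) (h0 : v i0 ≠ 0) :
    MvPolynomial σ K ≃ₐ[K] MvPolynomial σ K :=
  AlgEquiv.ofAlgHom
    (aeval (fun j => if j = i0 then C (v i0) * X i0 else X j + C (v j) * X i0))
    (aeval (fun j => if j = i0 then C (v i0)⁻¹ * X i0 else X j - C (v j * (v i0)⁻¹) * X i0))
    (by
      apply MvPolynomial.algHom_ext
      intro j
      by_cases hj : j = i0
      · subst hj
        simp only [AlgHom.comp_apply, aeval_X, if_true, map_mul, AlgHom.id_apply, aeval_C,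
          algebraMap_eq]
        rw [← mul_assoc, ← C_mul, inv_mul_cancel₀ h0, C_1, one_mul]
      · simp only [AlgHom.comp_apply, aeval_X, hj, if_false, if_true, map_sub, map_mul,
          AlgHom.id_apply, aeval_C, algebraMap_eq]
        have hc : (C (v i0)⁻¹ : MvPolynomial σ K) * C (v i0) = 1 := by
          rw [← C_mul, inv_mul_cancel₀ h0, C_1]
        linear_combination (-(C (v j) * X i0)) * hc)
    (by
      apply MvPolynomial.algHom_ext
      intro j
      by_cases hj : j = i0
      · subst hj
        simp only [AlgHom.comp_apply, aeval_X, if_true, map_mul, AlgHom.id_apply, aeval_C,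
          algebraMap_eq]
        rw [← mul_assoc, ← C_mul, mul_inv_cancel₀ h0, C_1, one_mul]
      · simp only [AlgHom.comp_apply, aeval_X, hj, if_false, if_true, map_add, map_mul,
          AlgHom.id_apply, aeval_C, algebraMap_eq]
        ring)

lemma shear_X {σ : Type*} [DecidableEq σ] (v : σ → K) (i0 : σ) (h0 : v i0 ≠ 0) (j : σ) :
    shear v i0 h0 (X j) = if j = i0 then C (v i0) * X i0 else X j + C (v j) * X i0 := by
  simp [shear]

lemma pderiv_shear {σ : Type*} [Fintype σ] [DecidableEq σ] (v : σ → K) (i0 : σ) (h0 : v i0 ≠ 0)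
    (f : MvPolynomial σ K) :
    pderiv i0 (shear v i0 h0 f) = shear v i0 h0 (∑ j, C (v j) * pderiv j f) := by
  have h := der_eq_sum (conjDer (shear v i0 h0) (pderiv i0)) f
  have hX : ∀ j, conjDer (shear v i0 h0) (pderiv i0) (X j) = C (v j) := by
    intro j
    rw [conjDer_apply, shear_X]
    by_cases hj : j = i0
    · subst hj
      simp only [if_true, Derivation.leibniz, pderiv_C, pderiv_X_self, smul_eq_mul, mul_one,
        mul_zero, add_zero]
      exact (shear v j h0).symm.commutes (v j)
    · simp only [hj, if_false, map_add, Derivation.leibniz, pderiv_C, pderiv_X_self, smul_eq_mul,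
        mul_one, mul_zero, add_zero, pderiv_X_of_ne hj, zero_add]
      exact (shear v i0 h0).symm.commutes (v j)
  simp only [hX] at h
  rw [← h, conjDer_apply, AlgEquiv.apply_symm_apply]



/-- `K[x_j : j ∈ σ] ≃ (K[x_j : j ≠ i0])[T]`, with `x_{i0} ↦ T`. -/
noncomputable def splitVar {σ : Type*} [DecidableEq σ] (i0 : σ) :
    MvPolynomial σ K ≃ₐ[K] Polynomial (MvPolynomial {b // b ≠ i0} K) :=
  (renameEquiv K (Equiv.optionSubtypeNe i0).symm).trans (optionEquivLeft K {b // b ≠ i0})

lemma splitVar_X_self {σ : Type*} [DecidableEq σ] (i0 : σ) :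
    splitVar (K := K) i0 (X i0) = Polynomial.X := by
  simp [splitVar, optionEquivLeft_X_none]

lemma splitVar_X_ne {σ : Type*} [DecidableEq σ] (i0 j : σ) (hj : j ≠ i0) :
    splitVar (K := K) i0 (X j) = Polynomial.C (X ⟨j, hj⟩) := by
  simp [splitVar, hj, optionEquivLeft_X_some]

/-- the derivative of `A[T]` as a `K`-derivation. -/
noncomputable def derK (A : Type*) [CommRing A] [Algebra K A] :
    Derivation K (Polynomial A) (Polynomial A) :=
  Derivation.restrictScalars K (Polynomial.derivative' (R := A))

lemma derK_apply (A : Type*) [CommRing A] [Algebra K A] (P : Polynomial A) :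
    derK (K := K) A P = Polynomial.derivative P := rfl

lemma derivative_splitVar {σ : Type*} [Fintype σ] [DecidableEq σ] (i0 : σ) (g : MvPolynomial σ K) :
    Polynomial.derivative (splitVar i0 g) = splitVar i0 (pderiv i0 g) := by
  have h : conjDer (splitVar (K := K) i0) (derK _) = pderiv i0 := by
    apply MvPolynomial.derivation_ext
    intro j
    rw [conjDer_apply, derK_apply]
    by_cases hj : j = i0
    · subst hj
      rw [splitVar_X_self, Polynomial.derivative_X, pderiv_X_self, map_one]
    · rw [splitVar_X_ne i0 j hj, Polynomial.derivative_C, pderiv_X_of_ne hj, map_zero]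
  rw [← h, conjDer_apply, derK_apply, AlgEquiv.apply_symm_apply]

lemma eq_X_add_C_of_derivative_eq_one {A : Type*} [CommRing A] [IsDomain A] [CharZero A]
    (P : Polynomial A) (h : Polynomial.derivative P = 1) : P = Polynomial.X + Polynomial.C (P.coeff 0) := by
  ext n
  rcases n with _ | n
  · simp
  · have hn := congrArg (fun Q => Polynomial.coeff Q n) h
    simp only [Polynomial.coeff_derivative] at hn
    rcases n with _ | n
    · simp only [Polynomial.coeff_one_zero] at hn
      simp only [Polynomial.coeff_add, Polynomial.coeff_C_succ]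
      simpa using hn
    · have h1 : (Polynomial.coeff (1 : Polynomial A) (n + 1)) = 0 := by
        rw [Polynomial.coeff_one]; simp
      rw [h1] at hn
      have h2 : ((n + 1 : ℕ) : A) + 1 ≠ 0 := by
        have : ((n + 1 + 1 : ℕ) : A) ≠ 0 := Nat.cast_ne_zero.mpr (by omega)
        simpa using this
      have h3 := (mul_eq_zero.mp hn).resolve_right h2
      rw [h3]
      simp [Polynomial.coeff_X]

/-- Slice lemma: a polynomial with a constant directional derivative `1` is a coordinate. -/
theorem coordinate_of_slice [CharZero K] {σ : Type*} [Fintype σ] [DecidableEq σ]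
    (f : MvPolynomial σ K) (v : σ → K) (hv : ∑ j, C (v j) * pderiv j f = 1) : IsCoordinate f := by
  have hex : ∃ i0, v i0 ≠ 0 := by
    by_contra hcon
    push Not at hcon
    simp [hcon] at hv
  obtain ⟨i0, h0⟩ := hex
  set lam := shear v i0 h0 with hlam
  set g := lam f with hg
  have hg1 : pderiv i0 g = 1 := by
    rw [hg, hlam, pderiv_shear, hv, map_one]
  set e := splitVar (K := K) i0 with he
  have hP : Polynomial.derivative (e g) = 1 := by
    rw [he, derivative_splitVar, hg1, map_one]
  have hP2 := eq_X_add_C_of_derivative_eq_one (e g) hP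
  set a := (e g).coeff 0 with ha
  let tau : Polynomial (MvPolynomial {b // b ≠ i0} K) ≃ₐ[K] Polynomial (MvPolynomial {b // b ≠ i0} K) :=
    (Polynomial.algEquivAevalXAddC a).restrictScalars K
  have htau : tau Polynomial.X = Polynomial.X + Polynomial.C a := by
    simp [tau]
  refine ⟨e.trans (tau.trans (e.symm.trans lam.symm)), i0, ?_⟩
  simp only [AlgEquiv.trans_apply]
  rw [he, splitVar_X_self, htau, ← hP2, ← he, AlgEquiv.symm_apply_apply, hg, AlgEquiv.symm_apply_apply]



/-- the gradient of a polynomial that becomes a coordinate after adding variables has no zero. -/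
lemma grad_no_zero {σ τ : Type*} [Fintype τ] [DecidableEq τ] (ι : σ → τ)
    (hι : Function.Injective ι) (f : MvPolynomial σ K) (h : IsCoordinate (rename ι f))
    (a : σ → K) : ∃ j, eval a (pderiv j f) ≠ 0 := by
  classical
  by_contra hcon
  push Not at hcon
  obtain ⟨c, hc⟩ := grad_unimodular (rename ι f) h
  have hb : (Function.extend ι a 0) ∘ ι = a := by
    funext j
    simp [hι.extend_apply]
  have h1 := congrArg (eval (Function.extend ι a 0)) hc
  rw [map_sum, map_one] at h1
  have h2 : ∀ k, eval (Function.extend ι a 0) (c k * pderiv k (rename ι f)) = 0 := by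
    intro k
    rw [map_mul]
    by_cases hk : ∃ j, ι j = k
    · obtain ⟨j, rfl⟩ := hk
      rw [pderiv_rename hι, eval_rename, hb, hcon j, mul_zero]
    · have : k ∉ (rename ι f).vars := by
        intro hmem
        obtain ⟨j, _, hj⟩ := Finset.mem_image.mp (vars_rename ι f hmem)
        exact hk ⟨j, hj⟩
      rw [pderiv_eq_zero_of_notMem_vars this, map_zero, mul_zero]
  rw [Finset.sum_eq_zero (fun k _ => h2 k)] at h1
  exact zero_ne_one h1

/-- the general polynomial of degree at most two. -/
noncomputable def quad {σ : Type*} [Fintype σ] (c : K) (l : σ → K) (b : σ → σ → K) :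
    MvPolynomial σ K :=
  C c + ∑ j, C (l j) * X j + ∑ j, ∑ k, C (b j k) * (X j * X k)

lemma quad_add {σ : Type*} [Fintype σ] (c c' : K) (l l' : σ → K) (b b' : σ → σ → K) :
    quad c l b + quad c' l' b' = quad (c + c') (l + l') (b + b') := by
  unfold quad
  simp only [Pi.add_apply, C_add, add_mul, Finset.sum_add_distrib]
  ring

lemma peel {σ : Type*} (s : σ →₀ ℕ) (hs : s ≠ 0) :
    ∃ k s', s = Finsupp.single k 1 + s' ∧ s.sum (fun _ e => e) = 1 + s'.sum (fun _ e => e) := by
  classical
  obtain ⟨k, hk⟩ := Finsupp.ne_iff.mp hs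
  have hle : Finsupp.single k 1 ≤ s := by
    rw [Finsupp.single_le_iff]
    exact Nat.one_le_iff_ne_zero.mpr hk
  refine ⟨k, s - Finsupp.single k 1, (add_tsub_cancel_of_le hle).symm, ?_⟩
  conv_lhs => rw [← add_tsub_cancel_of_le hle]
  rw [Finsupp.sum_add_index' (fun _ => rfl) (fun _ _ _ => rfl), Finsupp.sum_single_index rfl]

lemma monomial_repr {σ : Type*} [Fintype σ] [DecidableEq σ] (s : σ →₀ ℕ) (a : K)
    (hs : s.sum (fun _ e => e) ≤ 2) : ∃ c l b, monomial s a = quad c l b := by
  by_cases h0 : s = 0
  · refine ⟨a, 0, 0, ?_⟩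
    subst h0
    simp [quad]
  obtain ⟨k, s', rfl, hdeg⟩ := peel s h0
  by_cases h1 : s' = 0
  · refine ⟨0, Pi.single k a, 0, ?_⟩
    subst h1
    simp only [quad, add_zero, Pi.zero_apply, C_0, zero_mul, Finset.sum_const_zero, zero_add]
    rw [Finset.sum_eq_single k]
    · rw [Pi.single_eq_same, C_mul_X_eq_monomial]
    · intro j _ hj
      rw [Pi.single_eq_of_ne hj, C_0, zero_mul]
    · intro h; exact absurd (Finset.mem_univ k) h
  obtain ⟨k', s'', rfl, hdeg'⟩ := peel s' h1
  have h2 : s'' = 0 := by
    have hz : s''.sum (fun _ e => e) = 0 := by omega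
    ext i
    by_contra hi
    have hmem : i ∈ s''.support := Finsupp.mem_support_iff.mpr hi
    have : s'' i ≤ s''.sum (fun _ e => e) := Finset.single_le_sum (f := fun i => s'' i) (fun _ _ => Nat.zero_le _) hmem
    simp only [Finsupp.coe_zero, Pi.zero_apply] at hi
    omega
  subst h2
  refine ⟨0, 0, fun j j' => if j = k ∧ j' = k' then a else 0, ?_⟩
  simp only [quad, add_zero, Pi.zero_apply, C_0, zero_mul, Finset.sum_const_zero, zero_add]
  rw [Finset.sum_eq_single k, Finset.sum_eq_single k']
  · simp only [and_self, if_true]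
    rw [monomial_single_add, pow_one, ← C_mul_X_eq_monomial]
    ring
  · intro j _ hj
    simp [hj]
  · intro h; exact absurd (Finset.mem_univ k') h
  · intro j _ hj
    apply Finset.sum_eq_zero
    intro j' _
    simp [hj]
  · intro h; exact absurd (Finset.mem_univ k) h

lemma exists_quad_repr {σ : Type*} [Fintype σ] [DecidableEq σ] (f : MvPolynomial σ K)
    (hf : f.totalDegree ≤ 2) : ∃ c l b, f = quad c l b := by
  rw [f.as_sum]
  apply Finset.sum_induction _ (fun P => ∃ c l b, P = quad c l b)
  · rintro _ _ ⟨c, l, b, rfl⟩ ⟨c', l', b', rfl⟩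
    exact ⟨_, _, _, quad_add c c' l l' b b'⟩
  · exact ⟨0, 0, 0, by simp [quad]⟩
  · intro s hs
    exact monomial_repr s _ (le_trans (le_totalDegree hs) hf)

lemma eval_pderiv_quad {σ : Type*} [Fintype σ] [DecidableEq σ] (c : K) (l : σ → K) (b : σ → σ → K)
    (i : σ) (a : σ → K) :
    eval a (pderiv i (quad c l b)) = l i + ∑ k, (b i k + b k i) * a k := by
  unfold quad
  simp only [map_add, map_sum, Derivation.leibniz, pderiv_C, pderiv_X, smul_eq_mul, mul_zero,
    add_zero, map_mul, eval_C, eval_X, zero_add]
  have hs : ∀ x, eval a ((Pi.single i 1 : σ → MvPolynomial σ K) x) = if x = i then 1 else 0 := by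
    intro x
    by_cases h : x = i
    · subst h; simp
    · simp [h]
  simp only [hs, mul_ite, mul_one, mul_zero, Finset.sum_ite_eq', Finset.mem_univ, if_true,
    mul_add, Finset.sum_add_distrib]
  congr 1
  have e1 : ∑ x, ∑ y, (if x = i then b x y * a y else 0) = ∑ y, b i y * a y := by
    rw [Finset.sum_comm]
    apply Finset.sum_congr rfl
    intro y _
    simp
  rw [e1]
  simp only [add_mul, Finset.sum_add_distrib]
  ring



lemma exists_slice_of_quad [CharZero K] {σ : Type*} [Fintype σ] [DecidableEq σ]
    (c : K) (l : σ → K) (b : σ → σ → K)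
    (hno : ∀ a : σ → K, ∃ j, eval a (pderiv j (quad c l b)) ≠ 0) :
    ∃ v : σ → K, ∑ j, C (v j) * pderiv j (quad c l b) = 1 := by
  have : Infinite K := CharZero.infinite K
  set M : Matrix σ σ K := fun i k => b i k + b k i with hM
  set T : (σ → K) →ₗ[K] (σ → K) := Matrix.mulVecLin M with hT
  have hTa : ∀ a i, T a i = ∑ k, (b i k + b k i) * a k := by
    intro a i
    rw [hT, Matrix.mulVecLin_apply]
    rfl
  have hw : (-l) ∉ LinearMap.range T := by
    rintro ⟨a, ha⟩
    obtain ⟨j, hj⟩ := hno a
    apply hj
    rw [eval_pderiv_quad, ← hTa, ha]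
    simp
  obtain ⟨φ, hφ1, hφ2⟩ := Submodule.exists_dual_map_eq_bot_of_notMem hw inferInstance
  have hφl : φ l ≠ 0 := by
    intro h
    apply hφ1
    rw [map_neg, h, neg_zero]
  have hφT : ∀ a, φ (T a) = 0 := by
    intro a
    have : φ (T a) ∈ Submodule.map φ (LinearMap.range T) := ⟨T a, ⟨a, rfl⟩, rfl⟩
    rw [hφ2] at this
    exact (Submodule.mem_bot K).mp this
  set u : σ → K := fun j => φ (fun k => if j = k then 1 else 0) with hu
  have hφu : ∀ y : σ → K, φ y = ∑ j, y j * u j := by
    intro y
    rw [LinearMap.pi_apply_eq_sum_univ φ y]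
    simp [hu]
  refine ⟨fun j => u j / φ l, ?_⟩
  apply MvPolynomial.funext
  intro a
  simp only [map_sum, map_mul, eval_C, map_one, eval_pderiv_quad]
  have h1 : ∑ j, u j / φ l * (l j + ∑ k, (b j k + b k j) * a k)
      = (∑ j, l j * u j + ∑ j, T a j * u j) / φ l := by
    rw [← Finset.sum_add_distrib, Finset.sum_div]
    apply Finset.sum_congr rfl
    intro j _
    rw [hTa]
    ring
  rw [h1, ← hφu, ← hφu, hφT, add_zero, div_self hφl]

/-- Stable coordinates of degree at most two are coordinates. -/
theorem coordinate_of_stable_of_degree_le_two [CharZero K] {n : ℕ} (f : MvPolynomial (Fin n) K)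
    (hdeg : f.totalDegree ≤ 2) (h : IsStableCoordinate f) : IsCoordinate f := by
  obtain ⟨m, _, hm⟩ := h
  obtain ⟨c, l, b, rfl⟩ := exists_quad_repr f hdeg
  obtain ⟨v, hv⟩ := exists_slice_of_quad c l b
    (grad_no_zero (Fin.castAdd m) (Fin.castAdd_injective n m) _ hm)
  exact coordinate_of_slice _ v hv

end

end Vale.Agent.Lib.P295
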